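import Vale.Agent.P180.R2.H589.Sch.ChrMain
import Vale.Agent.P180.R2.H259.Schur.Main

/-!
P180: finite perfect groups `L` with `L/Z(L) ≅ PSL(n, K)`, `n ≥ 2`, `|K| > 9`, are quotients of
`SL(n, K)`.
-/

set_option linter.all false

namespace Vale.Agent.P180.R2.H589.Sch

open Subgroup

variable {K : Type*} [Field K] [Finite K]

/-- A finite perfect central extension of `SL(n, K)` is trivial. -/
theorem sl_injective {n : ℕ} (hn : 2 ≤ n) (hK : 9 < Nat.card K) {E : Type} [Group E] [Finite E]
    (hperf : commutator E = ⊤) (f : E →* Matrix.SpecialLinearGroup (Fin n) K)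
    (hf : Function.Surjective f) (hk : f.ker ≤ center E) : Function.Injective f := by
  haveI hp : Fact (ringChar K).Prime := ⟨CharP.char_is_prime K (ringChar K)⟩
  set p := ringChar K with hpdef
  -- the kernel has order prime to `p`
  have h1 : ¬ p ∣ Nat.card f.ker := by
    intro hd
    obtain ⟨w, hw⟩ := exists_prime_orderOf_dvd_card' p hd
    have h2 : (w : E) = 1 := by
      refine chrClaim (p := p) (by omega) hK E f hf hk hperf w w.2 ⟨1, ?_⟩
      have h3 : w ^ p = 1 := by rw [← hw]; exact pow_orderOf_eq_one w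
      rw [pow_one]
      exact congrArg Subtype.val h3
    have h3 : w = 1 := Subtype.ext h2
    rw [h3, orderOf_one] at hw
    exact hp.out.one_lt.ne hw
  -- `E` is generated by the `p`-elements
  set H : Subgroup E := closure {x : E | Pel p x} with hH
  have h2 : H.map f = ⊤ := by
    rw [eq_top_iff]
    rintro A -
    refine tv_induction (by omega) (fun A => A ∈ H.map f) (fun i j hij c => ?_)
      (Subgroup.one_mem _) (fun _ _ => Subgroup.mul_mem _) A
    obtain ⟨q, hq, hfq⟩ := exists_pel (p := p) h1 (tv_pel (p := p) hij c) (hf _)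
    exact ⟨q, subset_closure hq, hfq⟩
  have h3 : H = ⊤ := by
    have h4 : commutator E ≤ ⁅H, H⁆ := by
      rw [commutator_def, commutator_le]
      intro x _ y _
      obtain ⟨x', hx', hxx⟩ : f x ∈ H.map f := by rw [h2]; exact mem_top _
      obtain ⟨y', hy', hyy⟩ : f y ∈ H.map f := by rw [h2]; exact mem_top _
      rw [comm_congr hk hxx.symm hyy.symm]
      exact commutator_mem_commutator hx' hy'
    have h5 : ⁅H, H⁆ ≤ H := by
      rw [commutator_le]
      intro x hx y hy
      rw [commutatorElement_def]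
      exact mul_mem (mul_mem (mul_mem hx hy) (inv_mem hx)) (inv_mem hy)
    rw [eq_top_iff, ← hperf]
    exact h4.trans h5
  rw [← MonoidHom.ker_eq_bot_iff]
  exact copClaim (p := p) hn (by omega) E f hf hk h1 h3

theorem sl_perfect {n : ℕ} (hn : 1 ≤ n) (hK : 4 < Nat.card K) :
    commutator (Matrix.SpecialLinearGroup (Fin n) K) = ⊤ := by
  obtain ⟨μ, h0, h2, -⟩ := exists_mu (K := K) hK
  exact perfect_sl hn h0 h2

end Vale.Agent.P180.R2.H589.Sch

namespace Vale.Agent.P180.R2.H589.Sch

open Subgroup

variable {K : Type} [Field K] [Finite K]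

/-- A finite perfect group `L` with `L/Z(L) ≅ PSL(n, K)` is a quotient of `SL(n, K)` by a central
subgroup (`n ≥ 2`, `|K| > 9`). -/
theorem exists_surj_sl {n : ℕ} (hn : 2 ≤ n) (hK : 9 < Nat.card K) {L : Type} [Group L] [Finite L]
    (hL : commutator L = ⊤)
    (e : L ⧸ center L ≃* Matrix.SpecialLinearGroup (Fin n) K ⧸
      center (Matrix.SpecialLinearGroup (Fin n) K)) :
    ∃ π : Matrix.SpecialLinearGroup (Fin n) K →* L, Function.Surjective π ∧
      π.ker ≤ center (Matrix.SpecialLinearGroup (Fin n) K) :=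
  H259.Schur.exists_surj_of_injective (sl_perfect (by omega) (by omega)) hL
    (fun E π h1 h2 h3 => sl_injective hn hK h1 π h2 h3) e

/-- The same for the group of the linear automorphisms of determinant one. -/
theorem exists_surj_slv {n : ℕ} (hn : 2 ≤ n) (hK : 9 < Nat.card K) {L : Type} [Group L]
    [Finite L] (hL : commutator L = ⊤)
    (e : L ⧸ center L ≃* Matrix.SpecialLinearGroup (Fin n) K ⧸
      center (Matrix.SpecialLinearGroup (Fin n) K)) :
    ∃ π : _root_.SpecialLinearGroup K (Fin n → K) →* L, Function.Surjective π ∧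
      π.ker ≤ center (_root_.SpecialLinearGroup K (Fin n → K)) := by
  obtain ⟨π, h1, h2⟩ := exists_surj_sl hn hK hL e
  let ε : Matrix.SpecialLinearGroup (Fin n) K ≃* _root_.SpecialLinearGroup K (Fin n → K) :=
    Matrix.SpecialLinearGroup.toLin'_equiv
  refine ⟨π.comp ε.symm.toMonoidHom, h1.comp ε.symm.surjective, fun x hx => ?_⟩
  have h3 : ε.symm x ∈ center (Matrix.SpecialLinearGroup (Fin n) K) := h2 hx
  rw [mem_center_iff] at h3 ⊢
  intro y
  have h4 := congrArg ε (h3 (ε.symm y))
  rwa [map_mul, map_mul, ε.apply_symm_apply, ε.apply_symm_apply] at h4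

end Vale.Agent.P180.R2.H589.Sch
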